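import Crest.Agent.Helper49.S0112.CoreAux

/-!
# S0112: the assembly (steps I.2–I.6 of notes/s0112/PROOF.md) from package statements (helper49)

`core_of_packages`: the per-`n` core of S0112 from the package statements taken as hypotheses
(smoothing `hsmooth` = B + D + A5 + A4, Tomita consequences `hU_vac`, `hstar`, `hkms` = C,
sampling `hsamp` = E2 + F, phases `hphase` = G, resolvent truncation `hres` = H, window `hwin`).
-/

open Crest.OpAlg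

set_option linter.unusedSectionVars false

namespace Crest.Agent.Helper49.S0112

variable {H : Type*} [NormedAddCommGroup H] [InnerProductSpace ℂ H] [CompleteSpace H]

set_option maxHeartbeats 4000000 in
theorem core_of_packages (S : ModularDatum H)
    (hU_vac : ∀ t, S.D.wave t S.vac = S.vac)
    (C₀ : ℝ) (hC₀ : 0 ≤ C₀)
    (hsmooth : ∀ (s δ : ℝ), 0 < δ → ∃ P : H →L[ℂ] H,
      (∀ y, ‖P y‖ ≤ ‖y‖) ∧
      (∀ y, S.D.SupportedIn (Set.Icc (s - 2 * δ) (s + 2 * δ)) (P y)) ∧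
      (∀ x, S.D.SupportedIn (Set.Icc (s - δ) (s + δ)) x → P x = x) ∧
      (∀ b, b ∈ S.M → ∃ a, a ∈ S.M ∧ ‖a‖ ≤ C₀ * ‖b‖ ∧ a S.vac = P (b S.vac) ∧
          S.D.SupportedIn (Set.Icc (-s - 2 * δ) (-s + 2 * δ)) (star a S.vac)))
    (hstar : ∀ a, a ∈ S.M → ∀ lo hi : ℝ, S.D.SupportedIn (Set.Icc lo hi) (a S.vac) →
      ‖star a S.vac‖ ≤ Real.exp (hi / 2) * ‖a S.vac‖)
    (hkms : ∀ a, a ∈ S.M → ∀ lo hi : ℝ, S.D.SupportedIn (Set.Icc lo hi) (star a S.vac) →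
      ∃ w : H, inner ℂ S.vac w = ((‖a S.vac‖ ^ 2 : ℝ) : ℂ) ∧
        ∀ (t : ℝ) (r : H →L[ℂ] H), r ∈ S.M →
          inner ℂ (S.flow t a S.vac) (r (S.flow t a S.vac)) = inner ℂ (S.D.wave t w) (r S.vac))
    (T : H →L[ℂ] H)
    (hsamp : ∀ (y : H) (z : Fin 3 → H) (ε c' : ℝ), 0 < ε →
      (∀ K : ℕ, ∃ k, K ≤ k ∧ c' < windowMean (fun t => ‖T (S.D.wave t y)‖ ^ 2) k) →
      ∃ (N : ℕ) (t : Fin N → ℝ), 0 < N ∧
        c' - ε ≤ (N : ℝ)⁻¹ * ∑ i, ‖T (S.D.wave (t i) y)‖ ^ 2 ∧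
        ∀ j, ‖(N : ℂ)⁻¹ • ∑ i, S.D.wave (t i) (z j) - inner ℂ S.vac (z j) • S.vac‖ ≤ ε)
    (hphase : ∀ N : ℕ, ∃ (Θ : Type) (_ : Fintype Θ) (_ : Nonempty Θ) (ph : Θ → Fin N → ℂ),
      ∀ (x : Fin N → H →L[ℂ] H) (T' : H →L[ℂ] H) (ξ : H),
        (∑ θ, ‖T' ((∑ i, ph θ i • x i) ξ)‖ ^ 2 =
          (Fintype.card Θ : ℝ) * ∑ i, ‖T' (x i ξ)‖ ^ 2) ∧
        (∑ θ, ‖star (∑ i, ph θ i • x i) ((∑ i, ph θ i • x i) ξ)‖ ^ 2 ≤
          (Fintype.card Θ : ℝ) * (‖(∑ i, star (x i) * x i) ξ‖ ^ 2 +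
            ∑ j, (inner ℂ (x j ξ) ((∑ i, x i * star (x i)) (x j ξ))).re)))
    (hres : ∀ v, v ∈ S.M → ∀ R : ℝ, 0 < R → ∃ v', v' ∈ S.M ∧ ‖v'‖ ≤ Real.sqrt R / 2 ∧
      ‖v S.vac - v' S.vac‖ ≤ ‖star v (v S.vac)‖ / (2 * Real.sqrt R))
    (s δ : ℝ) (hδ : 0 < δ) (hδ1 : δ ≤ 1) (h : H) (hh : ‖h‖ = 1)
    (hband : S.D.SupportedIn (Set.Icc (s - δ) (s + δ)) h)
    (c : ℝ) (hc : 0 < c)
    (hwin : ∀ y : H, ∀ K : ℕ, ∃ k, K ≤ k ∧
      3 * c / 4 - ‖T‖ ^ 2 * (‖y‖ + 1) * ‖y - h‖ <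
        windowMean (fun t => ‖T (S.D.wave t y)‖ ^ 2) k) :
    ∃ v, v ∈ S.M ∧
      ‖v‖ ≤ C₀ * (Real.sqrt (2 * (‖T‖ ^ 2 + 1) * (12 + 12 * Real.exp (s + 2)) / c) / 2) ∧
      Real.sqrt (c / 8) ≤ ‖T (v S.vac)‖ ∧
      S.D.SupportedIn (Set.Icc (s - 4 * δ) (s + 4 * δ)) (v S.vac) := by
  classical
  obtain ⟨τ, hτ⟩ : ∃ τ : ℝ, τ = ‖T‖ := ⟨_, rfl⟩
  obtain ⟨B, hB⟩ : ∃ B : ℝ, B = 12 + 12 * Real.exp (s + 2) := ⟨_, rfl⟩
  obtain ⟨R, hR⟩ : ∃ R : ℝ, R = 2 * (τ ^ 2 + 1) * B / c := ⟨_, rfl⟩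
  have hτ0 : 0 ≤ τ := by rw [hτ]; exact norm_nonneg _
  have hBpos : 0 < B := by rw [hB]; positivity
  have hRpos : 0 < R := by rw [hR]; positivity
  rw [← hτ, ← hB, ← hR]
  have hξ1 : ‖S.vac‖ = 1 := S.norm_vac
  by_contra hcon
  -- every admissible `v` has small `‖T (v ξ)‖`
  have hall : ∀ v, v ∈ S.M → ‖v‖ ≤ C₀ * (Real.sqrt R / 2) →
      S.D.SupportedIn (Set.Icc (s - 4 * δ) (s + 4 * δ)) (v S.vac) →
      ‖T (v S.vac)‖ ^ 2 < c / 8 := by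
    intro v hvM hvn hvs
    by_contra hge
    apply hcon
    refine ⟨v, hvM, hvn, ?_, hvs⟩
    have h1 : c / 8 ≤ ‖T (v S.vac)‖ ^ 2 := not_lt.1 hge
    calc Real.sqrt (c / 8) ≤ Real.sqrt (‖T (v S.vac)‖ ^ 2) := Real.sqrt_le_sqrt h1
      _ = ‖T (v S.vac)‖ := Real.sqrt_sq (norm_nonneg _)
  -- Step 1: approximate `h` by `b ξ`
  obtain ⟨ε₀, hε₀⟩ : ∃ ε₀ : ℝ, ε₀ = min (1 / 2) (c / (20 * (τ ^ 2 + 1))) := ⟨_, rfl⟩
  have hε₀pos : 0 < ε₀ := by rw [hε₀]; exact lt_min (by norm_num) (by positivity)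
  have hε₀half : ε₀ ≤ 1 / 2 := by rw [hε₀]; exact min_le_left _ _
  have hε₀c : ε₀ ≤ c / (20 * (τ ^ 2 + 1)) := by rw [hε₀]; exact min_le_right _ _
  obtain ⟨b, hbM, hbh⟩ : ∃ b, b ∈ S.M ∧ ‖b S.vac - h‖ < ε₀ := by
    obtain ⟨y, hy1, hy2⟩ := Metric.dense_iff.1 S.cyclic h ε₀ hε₀pos
    obtain ⟨a, rfl⟩ := hy2
    refine ⟨a, a.2, ?_⟩
    have := Metric.mem_ball.1 hy1
    rwa [dist_eq_norm] at this
  -- Step 2: smooth `b` to `a`
  obtain ⟨P, hP1, hP2, hP3, hP4⟩ := hsmooth s δ hδ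
  obtain ⟨a, haM, -, haξ, hastar⟩ := hP4 b hbM
  have hPh : P h = h := hP3 h hband
  have ha_h : ‖a S.vac - h‖ < ε₀ := by
    have e : a S.vac - h = P (b S.vac - h) := by rw [map_sub, hPh, haξ]
    rw [e]
    exact lt_of_le_of_lt (hP1 _) hbh
  have ha_supp : S.D.SupportedIn (Set.Icc (s - 2 * δ) (s + 2 * δ)) (a S.vac) := by
    rw [haξ]; exact hP2 _
  have ha_norm : ‖a S.vac‖ ≤ 3 / 2 := by
    have := norm_le_insert' (a S.vac) h
    linarith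
  obtain ⟨α, hα⟩ : ∃ α : ℝ, α = ‖a S.vac‖ ^ 2 := ⟨_, rfl⟩
  obtain ⟨β, hβ⟩ : ∃ β : ℝ, β = ‖star a S.vac‖ ^ 2 := ⟨_, rfl⟩
  have hα0 : 0 ≤ α := by rw [hα]; positivity
  have hβ0 : 0 ≤ β := by rw [hβ]; positivity
  have hα94 : α ≤ 9 / 4 := by
    rw [hα]
    have := pow_le_pow_left₀ (norm_nonneg _) ha_norm 2
    norm_num at this ⊢
    exact this
  have hβb : β ≤ Real.exp (s + 2) * (9 / 4) := by
    have hb1 : ‖star a S.vac‖ ≤ Real.exp ((s + 2 * δ) / 2) * ‖a S.vac‖ :=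
      hstar a haM _ _ ha_supp
    have h1 : ‖star a S.vac‖ ^ 2 ≤ (Real.exp ((s + 2 * δ) / 2) * ‖a S.vac‖) ^ 2 :=
      pow_le_pow_left₀ (norm_nonneg _) hb1 2
    have h2 : (Real.exp ((s + 2 * δ) / 2) * ‖a S.vac‖) ^ 2 =
        Real.exp (s + 2 * δ) * ‖a S.vac‖ ^ 2 := by
      rw [mul_pow, ← Real.exp_nat_mul]
      congr 2
      push_cast; ring
    have h3 : Real.exp (s + 2 * δ) ≤ Real.exp (s + 2) := Real.exp_le_exp.2 (by linarith)
    rw [hβ]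
    calc ‖star a S.vac‖ ^ 2 ≤ Real.exp (s + 2 * δ) * ‖a S.vac‖ ^ 2 := by rw [← h2]; exact h1
      _ ≤ Real.exp (s + 2) * (9 / 4) := by
          rw [← hα]
          exact mul_le_mul h3 hα94 hα0 (Real.exp_pos _).le
  obtain ⟨w, hw1, hw2⟩ := hkms a haM _ _ hastar
  -- Step 3: sampling
  obtain ⟨ε₁, hε₁⟩ : ∃ ε₁ : ℝ, ε₁ = min (1 / 4) (c / 8) := ⟨_, rfl⟩
  have hε₁pos : 0 < ε₁ := by rw [hε₁]; exact lt_min (by norm_num) (by positivity)
  have hε₁q : ε₁ ≤ 1 / 4 := by rw [hε₁]; exact min_le_left _ _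
  have hε₁c : ε₁ ≤ c / 8 := by rw [hε₁]; exact min_le_right _ _
  have hwin' : ∀ K : ℕ, ∃ k, K ≤ k ∧
      5 * c / 8 < windowMean (fun t => ‖T (S.D.wave t (a S.vac))‖ ^ 2) k := by
    intro K
    obtain ⟨k, hk, hlt⟩ := hwin (a S.vac) K
    refine ⟨k, hk, lt_of_le_of_lt ?_ hlt⟩
    have h1 : ‖T‖ ^ 2 * (‖a S.vac‖ + 1) * ‖a S.vac - h‖ ≤
        τ ^ 2 * (5 / 2) * (c / (20 * (τ ^ 2 + 1))) := by
      rw [← hτ]
      exact mul_le_mul (mul_le_mul_of_nonneg_left (by linarith) (by positivity))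
        (ha_h.le.trans hε₀c) (norm_nonneg _) (by positivity)
    have h2 : τ ^ 2 * (5 / 2) * (c / (20 * (τ ^ 2 + 1))) ≤ c / 8 := by
      have e : τ ^ 2 * (5 / 2) * (c / (20 * (τ ^ 2 + 1))) = c / 8 * (τ ^ 2 / (τ ^ 2 + 1)) := by
        field_simp; ring
      rw [e]
      exact mul_le_of_le_one_right (by positivity)
        ((div_le_one (by positivity)).2 (by linarith))
    linarith
  obtain ⟨N, t, hN, hs1, hs2⟩ :=
    hsamp (a S.vac) ![star a (a S.vac), a (star a S.vac), w] ε₁ (5 * c / 8) hε₁pos hwin'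
  have hNpos : (0 : ℝ) < N := Nat.cast_pos.2 hN
  -- the three inner products
  have hi0 : inner ℂ S.vac (star a (a S.vac)) = ((α : ℝ) : ℂ) := by
    rw [ContinuousLinearMap.star_eq_adjoint, ContinuousLinearMap.adjoint_inner_right,
      inner_self_eq_norm_sq_to_K, hα]
    push_cast; rfl
  have hi1 : inner ℂ S.vac (a (star a S.vac)) = ((β : ℝ) : ℂ) := by
    rw [← ContinuousLinearMap.adjoint_inner_left, ← ContinuousLinearMap.star_eq_adjoint,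
      inner_self_eq_norm_sq_to_K, hβ]
    push_cast; rfl
  have hi2 : inner ℂ S.vac w = ((α : ℝ) : ℂ) := by rw [hw1, hα]
  have hn0 : ‖∑ i, S.D.wave (t i) (star a (a S.vac))‖ ≤ N * (α + ε₁) := by
    have h0 := hs2 0
    simp only [Matrix.cons_val_zero] at h0
    have := norm_sum_le_of_avg hN _ S.vac hξ1 _ ε₁ h0
    rwa [hi0, Complex.norm_real, Real.norm_eq_abs, abs_of_nonneg hα0] at this
  have hn1 : ‖∑ i, S.D.wave (t i) (a (star a S.vac))‖ ≤ N * (β + ε₁) := by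
    have h0 := hs2 1
    simp only [Matrix.cons_val_one, Matrix.cons_val_zero] at h0
    have := norm_sum_le_of_avg hN _ S.vac hξ1 _ ε₁ h0
    rwa [hi1, Complex.norm_real, Real.norm_eq_abs, abs_of_nonneg hβ0] at this
  have hn2 : ‖∑ i, S.D.wave (t i) w‖ ≤ N * (α + ε₁) := by
    have h0 := hs2 2
    simp only [Matrix.cons_val_two, Matrix.tail_cons, Matrix.head_cons] at h0
    have := norm_sum_le_of_avg hN _ S.vac hξ1 _ ε₁ h0
    rwa [hi2, Complex.norm_real, Real.norm_eq_abs, abs_of_nonneg hα0] at this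
  -- Step 4: the operators `x i = σ_{t i}(a)`
  obtain ⟨x, hx⟩ : ∃ x : Fin N → H →L[ℂ] H, x = fun i => S.flow (t i) a := ⟨_, rfl⟩
  have hxdef : ∀ i, x i = S.D.wave (t i) * a * S.D.wave (-(t i)) := fun i => by rw [hx]; rfl
  have hxM : ∀ i, x i ∈ S.M := fun i => by rw [hxdef]; exact S.flow_mem (t i) a haM
  have hxξ : ∀ i, x i S.vac = S.D.wave (t i) (a S.vac) := by
    intro i
    rw [hxdef]
    change S.D.wave (t i) (a (S.D.wave (-(t i)) S.vac)) = _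
    rw [hU_vac]
  have hxstar : ∀ i, star (x i) = S.D.wave (t i) * star a * S.D.wave (-(t i)) := by
    intro i
    rw [hxdef, star_mul, star_mul, star_wave, star_wave, neg_neg, mul_assoc]
  have hxsx : ∀ i, (star (x i) * x i) S.vac = S.D.wave (t i) (star a (a S.vac)) := by
    intro i
    rw [hxstar, hxdef, conj_mul_conj (wave_neg_mul S.D (t i))]
    change S.D.wave (t i) (star a (a (S.D.wave (-(t i)) S.vac))) = _
    rw [hU_vac]
  have hxxs : ∀ i, (x i * star (x i)) S.vac = S.D.wave (t i) (a (star a S.vac)) := by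
    intro i
    rw [hxstar, hxdef, conj_mul_conj (wave_neg_mul S.D (t i))]
    change S.D.wave (t i) (a (star a (S.D.wave (-(t i)) S.vac))) = _
    rw [hU_vac]
  have hcξ : (∑ i, star (x i) * x i) S.vac = ∑ i, S.D.wave (t i) (star a (a S.vac)) := by
    rw [ContinuousLinearMap.sum_apply]
    exact Finset.sum_congr rfl fun i _ => hxsx i
  have hrM : (∑ i, x i * star (x i)) ∈ S.M :=
    sum_mem fun i _ => mul_mem (hxM i) (star_mem (hxM i))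
  have hrξ : (∑ i, x i * star (x i)) S.vac = ∑ i, S.D.wave (t i) (a (star a S.vac)) := by
    rw [ContinuousLinearMap.sum_apply]
    exact Finset.sum_congr rfl fun i _ => hxxs i
  have hg2a : ‖(∑ i, star (x i) * x i) S.vac‖ ^ 2 ≤ (N * (α + ε₁)) ^ 2 := by
    rw [hcξ]
    exact pow_le_pow_left₀ (norm_nonneg _) hn0 2
  have hg2b : ∑ j, (inner ℂ (x j S.vac) ((∑ i, x i * star (x i)) (x j S.vac))).re ≤
      (N * (α + ε₁)) * (N * (β + ε₁)) := by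
    have e : ∀ j, inner ℂ (x j S.vac) ((∑ i, x i * star (x i)) (x j S.vac)) =
        inner ℂ (S.D.wave (t j) w) ((∑ i, x i * star (x i)) S.vac) := by
      intro j
      have := hw2 (t j) _ hrM
      rw [show x j = S.flow (t j) a from by rw [hx]]
      exact this
    simp_rw [e]
    rw [← Complex.re_sum, ← sum_inner, hrξ]
    calc (inner ℂ (∑ j, S.D.wave (t j) w) (∑ i, S.D.wave (t i) (a (star a S.vac)))).re
        ≤ ‖∑ j, S.D.wave (t j) w‖ * ‖∑ i, S.D.wave (t i) (a (star a S.vac))‖ :=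
          (le_abs_self _).trans ((Complex.abs_re_le_norm _).trans (norm_inner_le_norm _ _))
      _ ≤ (N * (α + ε₁)) * (N * (β + ε₁)) :=
          mul_le_mul hn2 hn1 (norm_nonneg _) (by positivity)
  have hsamp1 : c / 2 * N ≤ ∑ i, ‖T (x i S.vac)‖ ^ 2 := by
    have e : ∑ i, ‖T (x i S.vac)‖ ^ 2 = ∑ i, ‖T (S.D.wave (t i) (a S.vac))‖ ^ 2 :=
      Finset.sum_congr rfl fun i _ => by rw [hxξ]
    rw [e]
    have h1 : c / 2 ≤ (N : ℝ)⁻¹ * ∑ i, ‖T (S.D.wave (t i) (a S.vac))‖ ^ 2 := by linarith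
    have h2 := mul_le_mul_of_nonneg_right h1 hNpos.le
    rwa [mul_comm (N : ℝ)⁻¹, mul_assoc, inv_mul_cancel₀ hNpos.ne', mul_one] at h2
  -- phases
  obtain ⟨Θ, instF, instN, ph, hG⟩ := hphase N
  obtain ⟨hG1, hG2⟩ := hG x T S.vac
  have hVM : ∀ θ, (∑ i, ph θ i • x i) ∈ S.M := fun θ =>
    sum_mem fun i _ => S.M.toStarSubalgebra.smul_mem (hxM i) (ph θ i)
  have hVsupp : ∀ θ, S.D.SupportedIn (Set.Icc (s - 2 * δ) (s + 2 * δ))
      ((∑ i, ph θ i • x i) S.vac) := by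
    intro θ
    rw [ContinuousLinearMap.sum_apply]
    refine supportedIn_sum _ _ _ _ fun i _ => ?_
    rw [ContinuousLinearMap.smul_apply, hxξ]
    exact supportedIn_smul _ _ _ _ (supportedIn_wave _ _ _ _ ha_supp)
  -- second smoothing, width `2δ`
  obtain ⟨Q, hQ1, hQ2, hQ3, hQ4⟩ := hsmooth s (2 * δ) (by positivity)
  -- normalisation
  obtain ⟨κ, hκ⟩ : ∃ κ : ℝ, κ = (Real.sqrt N)⁻¹ := ⟨_, rfl⟩
  have hκ0 : 0 ≤ κ := by rw [hκ]; positivity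
  have hκ2 : κ ^ 2 = (N : ℝ)⁻¹ := by
    rw [hκ, inv_pow, Real.sq_sqrt hNpos.le]
  -- pointwise inequality
  have hpt : ∀ θ : Θ, κ ^ 2 * ‖T ((∑ i, ph θ i • x i) S.vac)‖ ^ 2 <
      c / 4 + τ ^ 2 / (2 * R) *
        (κ ^ 4 * ‖star (∑ i, ph θ i • x i) ((∑ i, ph θ i • x i) S.vac)‖ ^ 2) := by
    intro θ
    obtain ⟨V, hV⟩ : ∃ V : H →L[ℂ] H, V = ∑ i, ph θ i • x i := ⟨_, rfl⟩
    rw [← hV]
    have hVM' : V ∈ S.M := by rw [hV]; exact hVM θ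
    have hVs : S.D.SupportedIn (Set.Icc (s - 2 * δ) (s + 2 * δ)) (V S.vac) := by
      rw [hV]; exact hVsupp θ
    have hvM : ((κ : ℂ) • V) ∈ S.M := S.M.toStarSubalgebra.smul_mem hVM' _
    have hvξ : ((κ : ℂ) • V) S.vac = (κ : ℂ) • V S.vac := rfl
    have hvs : S.D.SupportedIn (Set.Icc (s - 2 * δ) (s + 2 * δ)) (((κ : ℂ) • V) S.vac) := by
      rw [hvξ]; exact supportedIn_smul _ _ _ _ hVs
    obtain ⟨v', hv'M, hv'n, hv'e⟩ := hres ((κ : ℂ) • V) hvM R hRpos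
    obtain ⟨v'', hv''M, hv''n, hv''ξ, -⟩ := hQ4 v' hv'M
    have hv''s : S.D.SupportedIn (Set.Icc (s - 4 * δ) (s + 4 * δ)) (v'' S.vac) := by
      rw [hv''ξ]
      have := hQ2 (v' S.vac)
      have e1 : s - 2 * (2 * δ) = s - 4 * δ := by ring
      have e2 : s + 2 * (2 * δ) = s + 4 * δ := by ring
      rwa [e1, e2] at this
    have key := hall v'' hv''M (hv''n.trans (mul_le_mul_of_nonneg_left hv'n hC₀)) hv''s
    have e1 : ‖v'' S.vac - ((κ : ℂ) • V) S.vac‖ ≤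
        ‖star ((κ : ℂ) • V) (((κ : ℂ) • V) S.vac)‖ / (2 * Real.sqrt R) := by
      have e : v'' S.vac - ((κ : ℂ) • V) S.vac = Q (v' S.vac - ((κ : ℂ) • V) S.vac) := by
        rw [map_sub, hQ3 _ hvs, hv''ξ]
      rw [e]
      refine (hQ1 _).trans ?_
      rw [norm_sub_rev]
      exact hv'e
    have e2 := sq_norm_le_two_add T (((κ : ℂ) • V) S.vac) (v'' S.vac)
    have e3 : ‖T (((κ : ℂ) • V) S.vac)‖ ^ 2 = κ ^ 2 * ‖T (V S.vac)‖ ^ 2 := by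
      rw [hvξ, map_smul, norm_smul, Complex.norm_real, Real.norm_eq_abs, abs_of_nonneg hκ0,
        mul_pow]
    have e4 : ‖star ((κ : ℂ) • V) (((κ : ℂ) • V) S.vac)‖ ^ 2 =
        κ ^ 4 * ‖star V (V S.vac)‖ ^ 2 := by
      rw [star_smul, hvξ, ContinuousLinearMap.smul_apply, map_smul, smul_smul, norm_smul,
        mul_pow, norm_mul, Complex.star_def, Complex.conj_ofReal, Complex.norm_real,
        Real.norm_eq_abs, abs_of_nonneg hκ0]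
      ring
    have e5 : ‖v'' S.vac - ((κ : ℂ) • V) S.vac‖ ^ 2 ≤
        ‖star ((κ : ℂ) • V) (((κ : ℂ) • V) S.vac)‖ ^ 2 / (4 * R) := by
      have := pow_le_pow_left₀ (norm_nonneg _) e1 2
      rw [div_pow, mul_pow, Real.sq_sqrt hRpos.le] at this
      have h22 : (2 : ℝ) ^ 2 = 4 := by norm_num
      rw [h22] at this
      exact this
    rw [← e3, ← e4]
    have e6 : 2 * ‖T‖ ^ 2 * ‖v'' S.vac - ((κ : ℂ) • V) S.vac‖ ^ 2 ≤
        τ ^ 2 / (2 * R) * ‖star ((κ : ℂ) • V) (((κ : ℂ) • V) S.vac)‖ ^ 2 := by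
      rw [← hτ]
      have := mul_le_mul_of_nonneg_left e5 (by positivity : (0 : ℝ) ≤ 2 * τ ^ 2)
      refine this.trans (le_of_eq ?_)
      field_simp
      ring
    linarith
  -- sum over the phases
  have hsum := Finset.sum_lt_sum_of_nonempty (Finset.univ_nonempty (α := Θ))
    (fun θ _ => hpt θ)
  rw [← Finset.mul_sum, Finset.sum_add_distrib, ← Finset.mul_sum, ← Finset.mul_sum, hG1,
    Finset.sum_const, Finset.card_univ, nsmul_eq_mul] at hsum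
  have hcard : (0 : ℝ) < Fintype.card Θ := Nat.cast_pos.2 Fintype.card_pos
  -- lower bound of the left side
  have hL : (Fintype.card Θ : ℝ) * (c / 2) ≤
      κ ^ 2 * ((Fintype.card Θ : ℝ) * ∑ i, ‖T (x i S.vac)‖ ^ 2) := by
    rw [hκ2]
    have := mul_le_mul_of_nonneg_left hsamp1 hcard.le
    have e : (N : ℝ)⁻¹ * ((Fintype.card Θ : ℝ) * ∑ i, ‖T (x i S.vac)‖ ^ 2) =
        ((Fintype.card Θ : ℝ) * ∑ i, ‖T (x i S.vac)‖ ^ 2) / N := by ring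
    rw [e, le_div_iff₀ hNpos]
    linarith
  -- upper bound of the right side
  have hBound : (α + ε₁) ^ 2 + (α + ε₁) * (β + ε₁) ≤ B := by
    rw [hB]
    have hE : (0 : ℝ) < Real.exp (s + 2) := Real.exp_pos _
    have h1 : α + ε₁ ≤ 5 / 2 := by linarith
    have h2 : β + ε₁ ≤ Real.exp (s + 2) * (9 / 4) + 1 / 4 := by linarith
    have h3 : 0 ≤ α + ε₁ := by linarith
    have h4 : 0 ≤ β + ε₁ := by linarith
    have p1 : (α + ε₁) ^ 2 ≤ (5 / 2) ^ 2 := pow_le_pow_left₀ h3 h1 2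
    have p2 : (α + ε₁) * (β + ε₁) ≤ 5 / 2 * (Real.exp (s + 2) * (9 / 4) + 1 / 4) :=
      mul_le_mul h1 h2 h4 (by norm_num)
    norm_num at p1
    linarith
  have hU : τ ^ 2 / (2 * R) * (κ ^ 4 *
      ∑ θ, ‖star (∑ i, ph θ i • x i) ((∑ i, ph θ i • x i) S.vac)‖ ^ 2) ≤
      (Fintype.card Θ : ℝ) * (c / 4) := by
    have h1 : ∑ θ, ‖star (∑ i, ph θ i • x i) ((∑ i, ph θ i • x i) S.vac)‖ ^ 2 ≤
        (Fintype.card Θ : ℝ) * ((N : ℝ) ^ 2 * B) := by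
      refine hG2.trans (mul_le_mul_of_nonneg_left ?_ hcard.le)
      have : (N * (α + ε₁)) ^ 2 + (N * (α + ε₁)) * (N * (β + ε₁)) =
          (N : ℝ) ^ 2 * ((α + ε₁) ^ 2 + (α + ε₁) * (β + ε₁)) := by ring
      calc _ ≤ (N * (α + ε₁)) ^ 2 + (N * (α + ε₁)) * (N * (β + ε₁)) := add_le_add hg2a hg2b
        _ = (N : ℝ) ^ 2 * ((α + ε₁) ^ 2 + (α + ε₁) * (β + ε₁)) := this
        _ ≤ (N : ℝ) ^ 2 * B := mul_le_mul_of_nonneg_left hBound (by positivity)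
    have hκ4 : κ ^ 4 = ((N : ℝ) ^ 2)⁻¹ := by
      have : κ ^ 4 = (κ ^ 2) ^ 2 := by ring
      rw [this, hκ2, inv_pow]
    have h2 : κ ^ 4 * ∑ θ, ‖star (∑ i, ph θ i • x i) ((∑ i, ph θ i • x i) S.vac)‖ ^ 2 ≤
        (Fintype.card Θ : ℝ) * B := by
      have := mul_le_mul_of_nonneg_left h1 (by positivity : (0 : ℝ) ≤ κ ^ 4)
      refine this.trans (le_of_eq ?_)
      rw [hκ4]
      field_simp
    have h3 : τ ^ 2 / (2 * R) * ((Fintype.card Θ : ℝ) * B) ≤ (Fintype.card Θ : ℝ) * (c / 4) := by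
      have e : τ ^ 2 / (2 * R) * ((Fintype.card Θ : ℝ) * B) =
          (Fintype.card Θ : ℝ) * (c / 4) * (τ ^ 2 / (τ ^ 2 + 1)) := by
        rw [hR]
        field_simp
        ring
      rw [e]
      exact mul_le_of_le_one_right (by positivity)
        ((div_le_one (by positivity)).2 (by linarith))
    exact (mul_le_mul_of_nonneg_left h2 (by positivity)).trans h3
  linarith

end Crest.Agent.Helper49.S0112
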