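import Mathlib
import Crest.Prelude.Def_ModularData

/-!
# S0112: auxiliary lemmas for the assembly (helper49)

Small facts about the Prelude's wave group and spectral subspaces, and a few scalar/vector
estimates used in `Core.lean`.
-/

open Crest.OpAlg

namespace Crest.Agent.Helper49.S0112

variable {H : Type*} [NormedAddCommGroup H] [InnerProductSpace ℂ H] [CompleteSpace H]

theorem character_apply (t u : ℝ) :
    LineCalculus.character t u = Complex.exp (Complex.I * ((t * u : ℝ) : ℂ)) := rfl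

theorem character_neg_mul (t : ℝ) :
    LineCalculus.character (-t) * LineCalculus.character t = 1 := by
  ext u
  rw [BoundedContinuousFunction.mul_apply, character_apply, character_apply, ← Complex.exp_add]
  simp

theorem star_character (t : ℝ) :
    star (LineCalculus.character t) = LineCalculus.character (-t) := by
  ext u
  rw [BoundedContinuousFunction.star_apply, character_apply, character_apply]
  rw [Complex.star_def, ← Complex.exp_conj]
  congr 1
  simp

theorem wave_neg_mul (D : LineCalculus H) (t : ℝ) : D.wave (-t) * D.wave t = 1 := by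
  change D.apply (LineCalculus.character (-t)) * D.apply (LineCalculus.character t) = 1
  rw [← map_mul, character_neg_mul, map_one]

theorem star_wave (D : LineCalculus H) (t : ℝ) : star (D.wave t) = D.wave (-t) := by
  change star (D.apply (LineCalculus.character t)) = D.apply (LineCalculus.character (-t))
  rw [← map_star, star_character]

theorem supportedIn_wave (D : LineCalculus H) (K : Set ℝ) (t : ℝ) (x : H)
    (hx : D.SupportedIn K x) : D.SupportedIn K (D.wave t x) := by
  intro f hf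
  have h1 : D.apply f (D.wave t x) = D.wave t (D.apply f x) := by
    change D.apply f (D.apply (LineCalculus.character t) x) =
      D.apply (LineCalculus.character t) (D.apply f x)
    rw [← ContinuousLinearMap.mul_apply, ← ContinuousLinearMap.mul_apply, ← map_mul, ← map_mul,
      mul_comm]
  rw [h1, hx f hf, map_zero]

theorem supportedIn_sum (D : LineCalculus H) (K : Set ℝ) {ι : Type*} (s : Finset ι) (x : ι → H)
    (hx : ∀ i ∈ s, D.SupportedIn K (x i)) : D.SupportedIn K (∑ i ∈ s, x i) := by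
  intro f hf
  rw [map_sum]
  exact Finset.sum_eq_zero fun i hi => hx i hi f hf

theorem supportedIn_smul (D : LineCalculus H) (K : Set ℝ) (c : ℂ) (x : H)
    (hx : D.SupportedIn K x) : D.SupportedIn K (c • x) := by
  intro f hf
  rw [map_smul, hx f hf, smul_zero]

theorem conj_mul_conj {A A' a₁ a₂ : H →L[ℂ] H} (h : A' * A = 1) :
    (A * a₁ * A') * (A * a₂ * A') = A * (a₁ * a₂) * A' := by
  simp only [mul_assoc]
  rw [← mul_assoc A' A, h, one_mul]

theorem norm_sum_le_of_avg {N : ℕ} (hN : 0 < N) (v ξ : H) (hξ : ‖ξ‖ = 1) (q : ℂ) (ε : ℝ)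
    (h : ‖(N : ℂ)⁻¹ • v - q • ξ‖ ≤ ε) : ‖v‖ ≤ N * (‖q‖ + ε) := by
  have hN' : (N : ℂ) ≠ 0 := Nat.cast_ne_zero.2 hN.ne'
  have h1 : ‖(N : ℂ)⁻¹ • v‖ ≤ ‖q‖ + ε := by
    have := norm_le_insert' ((N : ℂ)⁻¹ • v) (q • ξ)
    rw [norm_smul q, hξ, mul_one] at this
    linarith
  have h2 : v = (N : ℂ) • ((N : ℂ)⁻¹ • v) := by
    rw [smul_smul, mul_inv_cancel₀ hN', one_smul]
  rw [h2, norm_smul, Complex.norm_natCast]
  exact mul_le_mul_of_nonneg_left h1 (Nat.cast_nonneg N)

theorem sq_norm_le_two_add (T : H →L[ℂ] H) (x y : H) :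
    ‖T x‖ ^ 2 ≤ 2 * ‖T y‖ ^ 2 + 2 * ‖T‖ ^ 2 * ‖y - x‖ ^ 2 := by
  have h1 : T x = T y - T (y - x) := by rw [map_sub]; abel
  have h2 : ‖T x‖ ≤ ‖T y‖ + ‖T‖ * ‖y - x‖ := by
    rw [h1]
    exact (norm_sub_le _ _).trans (add_le_add le_rfl (T.le_opNorm _))
  have h3 : ‖T x‖ ^ 2 ≤ (‖T y‖ + ‖T‖ * ‖y - x‖) ^ 2 :=
    pow_le_pow_left₀ (norm_nonneg _) h2 2
  nlinarith [sq_nonneg (‖T y‖ - ‖T‖ * ‖y - x‖)]

end Crest.Agent.Helper49.S0112
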