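import Mathlib

/-!
# S0112, package B: the bump kernel (helper49)

Pure Mathlib.  `exists_kernel`: there is an absolute constant `C₀` such that for every centre `s`
and every width `δ > 0` there is a continuous integrable `f : ℝ → ℂ` with `∫ ‖f‖ ≤ C₀` whose
"Fourier transform" `u ↦ ∫ f t * exp (I * (t * u))` is a real bump function `F` with
`0 ≤ F ≤ 1`, `F = 1` on `[s - δ, s + δ]` and `F = 0` off `[s - 2δ, s + 2δ]`.

The kernel is obtained from one smooth bump `ψ₀` by Fourier inversion for Schwartz functions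
(no explicit integral is computed).
-/

open MeasureTheory Real FourierTransform
open scoped SchwartzMap

noncomputable section

namespace Crest.Agent.Helper49.S0112

/-- the base bump: `1` on `[-1,1]`, `0` off `(-2,2)`. -/
def bump0 : ContDiffBump (0 : ℝ) := ⟨1, 2, one_pos, one_lt_two⟩

/-- the base bump as a complex valued function. -/
def psi0 (u : ℝ) : ℂ := ((bump0 u : ℝ) : ℂ)

lemma psi0_contDiff : ContDiff ℝ (⊤ : ℕ∞) psi0 := by
  unfold psi0
  exact Complex.ofRealCLM.contDiff.comp bump0.contDiff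

lemma psi0_hasCompactSupport : HasCompactSupport psi0 := by
  have h := bump0.hasCompactSupport
  exact h.comp_left (g := fun x : ℝ => (x : ℂ)) (by simp)

/-- the base bump as a Schwartz function. -/
def Psi0 : 𝓢(ℝ, ℂ) := psi0_hasCompactSupport.toSchwartzMap psi0_contDiff

/-- its Fourier transform, again a Schwartz function. -/
def G0 : 𝓢(ℝ, ℂ) := 𝓕 Psi0

lemma inv_formula (w : ℝ) :
    ∫ v : ℝ, Complex.exp ((↑(2 * π * (v * w)) : ℂ) * Complex.I) * G0 v = psi0 w := by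
  have h1 : 𝓕⁻ G0 = Psi0 := by
    unfold G0
    exact FourierTransform.fourierInv_fourier_eq Psi0
  have h2 : (𝓕⁻ G0 : 𝓢(ℝ, ℂ)) w = psi0 w := by rw [h1]; rfl
  rw [← h2, SchwartzMap.fourierInv_coe, Real.fourierInv_eq']
  congr 1
  ext v
  simp [mul_comm]

/-- the absolute constant: the `L¹` norm of the Fourier transform of the base bump. -/
def C0 : ℝ := ∫ v : ℝ, ‖G0 v‖

lemma C0_nonneg : 0 ≤ C0 := integral_nonneg fun _ => norm_nonneg _

/-- the kernel with centre `s` and width `δ`. -/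
def kernel (s δ : ℝ) (t : ℝ) : ℂ :=
  ((δ / (2 * π) : ℝ) : ℂ) * G0 (δ / (2 * π) * t) *
    Complex.exp (-(Complex.I * ((s * t : ℝ) : ℂ)))

/-- the bump with centre `s` and width `δ`. -/
def bumpAt (s δ : ℝ) (u : ℝ) : ℝ := bump0 ((u - s) / δ)

lemma kernel_continuous (s δ : ℝ) : Continuous (kernel s δ) := by
  unfold kernel
  have hG : Continuous fun t : ℝ => G0 (δ / (2 * π) * t) :=
    G0.continuous.comp (by fun_prop)
  fun_prop

lemma norm_kernel (s δ : ℝ) (hδ : 0 < δ) (t : ℝ) :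
    ‖kernel s δ t‖ = δ / (2 * π) * ‖G0 (δ / (2 * π) * t)‖ := by
  have ha : 0 < δ / (2 * π) := by positivity
  unfold kernel
  rw [norm_mul, norm_mul, Complex.norm_exp, Complex.norm_real, Real.norm_eq_abs, abs_of_pos ha]
  have h0 : (-(Complex.I * ((s * t : ℝ) : ℂ))).re = 0 := by simp
  rw [h0, Real.exp_zero, mul_one]

lemma kernel_integrable (s δ : ℝ) (hδ : 0 < δ) : Integrable (kernel s δ) := by
  have ha : 0 < δ / (2 * π) := by positivity
  have h1 : Integrable fun t : ℝ => G0 (δ / (2 * π) * t) :=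
    G0.integrable.comp_mul_left' ha.ne'
  have h2 : Integrable fun t : ℝ => ‖G0 (δ / (2 * π) * t)‖ := h1.norm
  have h3 : Integrable fun t : ℝ => δ / (2 * π) * ‖G0 (δ / (2 * π) * t)‖ := h2.const_mul _
  refine (integrable_norm_iff (kernel_continuous s δ).aestronglyMeasurable).1 ?_
  refine h3.congr (Filter.Eventually.of_forall fun t => ?_)
  exact (norm_kernel s δ hδ t).symm

lemma integral_norm_kernel (s δ : ℝ) (hδ : 0 < δ) : ∫ t, ‖kernel s δ t‖ = C0 := by
  have ha : 0 < δ / (2 * π) := by positivity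
  simp_rw [norm_kernel s δ hδ]
  rw [integral_const_mul, Measure.integral_comp_mul_left (fun y => ‖G0 y‖) (δ / (2 * π))]
  rw [abs_of_pos (inv_pos.2 ha), smul_eq_mul, ← mul_assoc, mul_inv_cancel₀ ha.ne', one_mul]
  rfl

lemma integral_kernel (s δ : ℝ) (hδ : 0 < δ) (u : ℝ) :
    ∫ t, kernel s δ t * Complex.exp (Complex.I * ((t * u : ℝ) : ℂ)) = (bumpAt s δ u : ℂ) := by
  have ha : 0 < δ / (2 * π) := by positivity
  have hpi : (0 : ℝ) < 2 * π := by positivity
  set w : ℝ := (u - s) / δ with hw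
  have key : ∀ t : ℝ, kernel s δ t * Complex.exp (Complex.I * ((t * u : ℝ) : ℂ)) =
      ((δ / (2 * π) : ℝ) : ℂ) *
        (fun y : ℝ => Complex.exp ((↑(2 * π * (y * w)) : ℂ) * Complex.I) * G0 y)
          (δ / (2 * π) * t) := by
    intro t
    have e1 : 2 * π * (δ / (2 * π) * t * w) = t * u - s * t := by
      rw [hw]; field_simp
    simp only [kernel]
    rw [e1, mul_assoc, mul_assoc, ← Complex.exp_add]
    have e2 : -(Complex.I * ((s * t : ℝ) : ℂ)) + Complex.I * ((t * u : ℝ) : ℂ) =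
        ((t * u - s * t : ℝ) : ℂ) * Complex.I := by
      push_cast; ring
    rw [e2]; ring
  simp_rw [key]
  rw [integral_const_mul,
    Measure.integral_comp_mul_left
      (fun y : ℝ => Complex.exp ((↑(2 * π * (y * w)) : ℂ) * Complex.I) * G0 y) (δ / (2 * π)),
    inv_formula w, abs_of_pos (inv_pos.2 ha), Complex.real_smul, ← mul_assoc, ← Complex.ofReal_mul,
    mul_inv_cancel₀ ha.ne', Complex.ofReal_one, one_mul]
  rfl

lemma bumpAt_continuous (s δ : ℝ) : Continuous (bumpAt s δ) := by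
  unfold bumpAt
  exact bump0.continuous.comp (by fun_prop)

lemma bumpAt_mem (s δ u : ℝ) : 0 ≤ bumpAt s δ u ∧ bumpAt s δ u ≤ 1 :=
  ⟨bump0.nonneg, bump0.le_one⟩

lemma bumpAt_eq_one (s δ : ℝ) (hδ : 0 < δ) {u : ℝ} (hu : u ∈ Set.Icc (s - δ) (s + δ)) :
    bumpAt s δ u = 1 := by
  unfold bumpAt
  apply bump0.one_of_mem_closedBall
  rw [Metric.mem_closedBall, Real.dist_eq, sub_zero, abs_div, abs_of_pos hδ, div_le_iff₀ hδ]
  change |u - s| ≤ 1 * δ
  rw [one_mul, abs_le]
  constructor <;> linarith [hu.1, hu.2]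

lemma bumpAt_eq_zero (s δ : ℝ) (hδ : 0 < δ) {u : ℝ} (hu : u ∉ Set.Icc (s - 2 * δ) (s + 2 * δ)) :
    bumpAt s δ u = 0 := by
  unfold bumpAt
  apply bump0.zero_of_le_dist
  rw [Real.dist_eq, sub_zero, abs_div, abs_of_pos hδ, le_div_iff₀ hδ]
  change 2 * δ ≤ |u - s|
  by_contra hlt
  have hlt' := not_le.1 hlt
  rw [abs_lt] at hlt'
  exact hu ⟨by linarith [hlt'.1], by linarith [hlt'.2]⟩

/-- **Package B.** One absolute constant `C₀` bounds the `L¹` norms of kernels `f` whose Fourier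
transforms (in the convention `∫ f t * exp (I * (t * u))`) are bumps `F`, `0 ≤ F ≤ 1`, equal to
`1` on `[s - δ, s + δ]` and to `0` off `[s - 2δ, s + 2δ]`. -/
theorem exists_kernel : ∃ C₀ : ℝ, 0 ≤ C₀ ∧ ∀ (s δ : ℝ), 0 < δ →
    ∃ f : ℝ → ℂ, Continuous f ∧ Integrable f ∧ (∫ t, ‖f t‖) ≤ C₀ ∧
      ∃ F : ℝ → ℝ, Continuous F ∧ (∀ u, 0 ≤ F u ∧ F u ≤ 1) ∧
        (∀ u ∈ Set.Icc (s - δ) (s + δ), F u = 1) ∧
        (∀ u, u ∉ Set.Icc (s - 2 * δ) (s + 2 * δ) → F u = 0) ∧
        ∀ u : ℝ, ∫ t, f t * Complex.exp (Complex.I * ((t * u : ℝ) : ℂ)) = (F u : ℂ) :=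
  ⟨C0, C0_nonneg, fun s δ hδ =>
    ⟨kernel s δ, kernel_continuous s δ, kernel_integrable s δ hδ,
      (integral_norm_kernel s δ hδ).le,
      bumpAt s δ, bumpAt_continuous s δ, bumpAt_mem s δ,
      fun _ hu => bumpAt_eq_one s δ hδ hu, fun _ hu => bumpAt_eq_zero s δ hδ hu,
      integral_kernel s δ hδ⟩⟩

end Crest.Agent.Helper49.S0112
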