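import Crest.Agent.Helper49.S0112.Core
import Crest.Agent.Helper69.S0112.Vac
import Crest.Agent.Helper5.S0112.Band
import Crest.Agent.Helper62.S0112.Phases
import Crest.Agent.Helper58.S0112.Resolvent
import Crest.Agent.Helper79.S0112.E2Final
import Crest.Agent.Helper97.S0112.RiemannWindow
import Crest.Agent.Helper63.S0112.Fourier
import Crest.Agent.Helper98.S0112.Frame

/-!
# S0112: the hypotheses of `core_of_packages` discharged from the landed packages (helper49)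

* `hsmooth_inst` : B (Helper4 kernel) + D/A5 (Helper5 smoothing) + C1 (Helper69 `wave_vac`);
* `hstar_inst`, `hkms_inst` : C2, C4 (Helper69 `norm_star_vac_le`, `kms_flow`, `inner_vac_apply`);
* `hsamp_inst` : E2 (Helper79 `window_err_final`) + F (Helper97 Riemann sums) + A3 (Helper63);
* `hphase_inst` : G (Helper62 phases);
* `hres_inst` : H (Helper58 resolvent truncation);
* `hwin_inst` : I.1 (Helper98 `exists_window`) + a perturbation estimate;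
* `key` : the `n`-free key statement `Helper98.Key`, from which the frozen statement follows by
  `Helper98.result_of_key`.
-/

open Crest.OpAlg

set_option linter.unusedSectionVars false

namespace Crest.Agent.Helper49.S0112

variable {H : Type*} [NormedAddCommGroup H] [InnerProductSpace ℂ H] [CompleteSpace H]

/-- Band smoothing (packages B, D, A4, A5, C1) in the shape of `core_of_packages`. -/
theorem hsmooth_inst (S : ModularDatum H) :
    ∃ C₀ : ℝ, 0 ≤ C₀ ∧ ∀ (s δ : ℝ), 0 < δ → ∃ P : H →L[ℂ] H,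
      (∀ y, ‖P y‖ ≤ ‖y‖) ∧
      (∀ y, S.D.SupportedIn (Set.Icc (s - 2 * δ) (s + 2 * δ)) (P y)) ∧
      (∀ x, S.D.SupportedIn (Set.Icc (s - δ) (s + δ)) x → P x = x) ∧
      (∀ b, b ∈ S.M → ∃ a, a ∈ S.M ∧ ‖a‖ ≤ C₀ * ‖b‖ ∧ a S.vac = P (b S.vac) ∧
          S.D.SupportedIn (Set.Icc (-s - 2 * δ) (-s + 2 * δ)) (star a S.vac)) := by
  obtain ⟨C₀, hC₀, hker⟩ := Crest.Agent.Helper4.S0112.exists_kernel_bcf
  refine ⟨C₀, hC₀, fun s δ hδ => ?_⟩
  obtain ⟨f, hf, hfC, F, hF, hF1, hFone, hFzero⟩ := hker s δ hδ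
  refine ⟨S.D.apply F, ?_, ?_, ?_, ?_⟩
  · intro y
    exact Crest.Agent.Helper5.S0112.norm_apply_apply_le_of_le_one S.D hF1 y
  · intro y
    exact Crest.Agent.Helper5.S0112.supportedIn_apply_of_vanish S.D hFzero y
  · intro x hx
    exact Crest.Agent.Helper5.S0112.apply_eq_self_of_eq_one_on S.D hFone hx
  · intro b hb
    obtain ⟨a, haM, han, haξ, hast⟩ :=
      Crest.Agent.Helper5.S0112.exists_smooth_supported S
        (Crest.Agent.Helper69.S0112.wave_vac S) f hf F hF (s - 2 * δ) (s + 2 * δ) hFzero b hb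
    refine ⟨a, haM, han.trans (mul_le_mul_of_nonneg_right hfC (norm_nonneg _)), haξ, ?_⟩
    have e1 : -(s + 2 * δ) = -s - 2 * δ := by ring
    have e2 : -(s - 2 * δ) = -s + 2 * δ := by ring
    rw [e1, e2] at hast
    exact hast

/-- C2 in the shape of `core_of_packages`. -/
theorem hstar_inst (S : ModularDatum H) :
    ∀ a, a ∈ S.M → ∀ lo hi : ℝ, S.D.SupportedIn (Set.Icc lo hi) (a S.vac) →
      ‖star a S.vac‖ ≤ Real.exp (hi / 2) * ‖a S.vac‖ := by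
  intro a ha lo hi hsupp
  exact Crest.Agent.Helper69.S0112.norm_star_vac_le S ha (Metric.isBounded_Icc lo hi) hsupp
    (fun u hu => hu.2)

/-- C4 in the shape of `core_of_packages`. -/
theorem hkms_inst (S : ModularDatum H) :
    ∀ a, a ∈ S.M → ∀ lo hi : ℝ, S.D.SupportedIn (Set.Icc lo hi) (star a S.vac) →
      ∃ w : H, inner ℂ S.vac w = ((‖a S.vac‖ ^ 2 : ℝ) : ℂ) ∧
        ∀ (t : ℝ) (r : H →L[ℂ] H), r ∈ S.M →
          inner ℂ (S.flow t a S.vac) (r (S.flow t a S.vac)) =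
            inner ℂ (S.D.wave t w) (r S.vac) := by
  intro a ha lo hi hsupp
  have hK : Bornology.IsBounded (Set.Icc lo hi) := Metric.isBounded_Icc lo hi
  obtain ⟨m, hm⟩ := Crest.Agent.Helper69.S0112.exists_nat_abs_le hK
  have hg : ∀ u ∈ Set.Icc lo hi,
      Crest.Agent.Helper69.S0112.ecut2 m u = ((Real.exp u : ℝ) : ℂ) := by
    intro u hu
    rw [Crest.Agent.Helper69.S0112.ecut2_apply,
      Crest.Agent.Helper69.S0112.cut_eq_one (hm u hu), one_mul]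
  refine ⟨a (S.D.apply (Crest.Agent.Helper69.S0112.ecut2 m) (star a S.vac)), ?_, ?_⟩
  · rw [Crest.Agent.Helper69.S0112.inner_vac_apply S ha hK hsupp _ hg]
    push_cast
    rfl
  · intro t r hr
    exact Crest.Agent.Helper69.S0112.kms_flow S (Crest.Agent.Helper69.S0112.wave_vac S) ha hr hK
      hsupp _ hg t

/-- G in the shape of `core_of_packages`. -/
theorem hphase_inst (N : ℕ) :
    ∃ (Θ : Type) (_ : Fintype Θ) (_ : Nonempty Θ) (ph : Θ → Fin N → ℂ),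
      ∀ (x : Fin N → H →L[ℂ] H) (T' : H →L[ℂ] H) (ξ : H),
        (∑ θ, ‖T' ((∑ i, ph θ i • x i) ξ)‖ ^ 2 =
          (Fintype.card Θ : ℝ) * ∑ i, ‖T' (x i ξ)‖ ^ 2) ∧
        (∑ θ, ‖star (∑ i, ph θ i • x i) ((∑ i, ph θ i • x i) ξ)‖ ^ 2 ≤
          (Fintype.card Θ : ℝ) * (‖(∑ i, star (x i) * x i) ξ‖ ^ 2 +
            ∑ j, (inner ℂ (x j ξ) ((∑ i, x i * star (x i)) (x j ξ))).re)) := by
  refine ⟨Fin N → Fin 4, inferInstance, inferInstance,
    fun θ i => Crest.Agent.Helper62.S0112.phase θ i, ?_⟩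
  intro x T' ξ
  have hcard : (Fintype.card (Fin N → Fin 4) : ℝ) = (4 : ℝ) ^ N := by
    rw [Fintype.card_fun, Fintype.card_fin, Fintype.card_fin]
    push_cast
    rfl
  rw [hcard]
  exact ⟨Crest.Agent.Helper62.S0112.sum_norm_sq_psum x T' ξ,
    Crest.Agent.Helper62.S0112.sum_norm_sq_star_psum_le x ξ⟩

/-- H in the shape of `core_of_packages`. -/
theorem hres_inst (S : ModularDatum H) :
    ∀ v, v ∈ S.M → ∀ R : ℝ, 0 < R → ∃ v', v' ∈ S.M ∧ ‖v'‖ ≤ Real.sqrt R / 2 ∧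
      ‖v S.vac - v' S.vac‖ ≤ ‖star v (v S.vac)‖ / (2 * Real.sqrt R) := by
  intro v hv R hR
  obtain ⟨w, h1, h2, h3⟩ := Crest.Agent.Helper58.S0112.exists_truncation_min v R hR
  exact ⟨v * w, h3 S.M hv, h1, h2 S.vac⟩

/-- Sampling (E2 + F + A3) in the shape of `core_of_packages`. -/
theorem hsamp_inst (S : ModularDatum H) (herg : S.Ergodic) (T : H →L[ℂ] H) :
    ∀ (y : H) (z : Fin 3 → H) (ε c' : ℝ), 0 < ε →
      (∀ K : ℕ, ∃ k, K ≤ k ∧ c' < windowMean (fun t => ‖T (S.D.wave t y)‖ ^ 2) k) →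
      ∃ (N : ℕ) (t : Fin N → ℝ), 0 < N ∧
        c' - ε ≤ (N : ℝ)⁻¹ * ∑ i, ‖T (S.D.wave (t i) y)‖ ^ 2 ∧
        ∀ j, ‖(N : ℂ)⁻¹ • ∑ i, S.D.wave (t i) (z j) - inner ℂ S.vac (z j) • S.vac‖ ≤ ε := by
  intro y z ε c' hε hwin
  have hε2 : 0 < ε / 2 := by positivity
  choose K hK using fun j =>
    Crest.Agent.Helper79.S0112.window_err_final S herg (z j) (ε / 2) hε2
  obtain ⟨k, hk, hlt⟩ := hwin (K 0 + K 1 + K 2 + 1)
  have hk0 : 0 < k := by omega
  have hkR : (0 : ℝ) < (k : ℝ) := by exact_mod_cast hk0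
  have hKj : ∀ j, K j ≤ k := by
    intro j
    fin_cases j
    · show K 0 ≤ k
      omega
    · show K 1 ≤ k
      omega
    · show K 2 ≤ k
      omega
  have hcontz : ∀ j, Continuous fun t : ℝ => S.D.wave t (z j) := fun j =>
    Crest.Agent.Helper63.S0112.continuous_wave_apply S.D (z j)
  obtain ⟨N1, hN1pos, hN1⟩ := Crest.Agent.Helper97.S0112.riemann_window_err_fin
    (fun j t => S.D.wave t (z j)) hcontz (k : ℝ) hkR (ε / 2) hε2
  have hcontg : Continuous fun t : ℝ => ‖T (S.D.wave t y)‖ ^ 2 :=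
    ((T.continuous.comp (Crest.Agent.Helper63.S0112.continuous_wave_apply S.D y)).norm).pow 2
  obtain ⟨N2, hN2pos, hN2⟩ := Crest.Agent.Helper97.S0112.grid_windowMean_err
    (fun t => ‖T (S.D.wave t y)‖ ^ 2) hcontg k hk0 ε hε
  obtain ⟨N, hN⟩ : ∃ N : ℕ, N = max N1 N2 := ⟨_, rfl⟩
  have hNN1 : N1 ≤ N := by rw [hN]; exact le_max_left _ _
  have hNN2 : N2 ≤ N := by rw [hN]; exact le_max_right _ _
  obtain ⟨t, ht⟩ : ∃ t : Fin N → ℝ,
      ∀ i, t i = -(k : ℝ) + 2 * (k : ℝ) * ((i : ℕ) : ℝ) / (N : ℝ) := ⟨_, fun _ => rfl⟩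
  refine ⟨N, t, lt_of_lt_of_le hN1pos hNN1, ?_, ?_⟩
  · have h2 := hN2 N hNN2
    have e : ∑ i, ‖T (S.D.wave (t i) y)‖ ^ 2 =
        ∑ i ∈ Finset.range N,
          ‖T (S.D.wave (-(k : ℝ) + 2 * (k : ℝ) * (i : ℝ) / (N : ℝ)) y)‖ ^ 2 := by
      rw [← Fin.sum_univ_eq_sum_range
        (fun i : ℕ => ‖T (S.D.wave (-(k : ℝ) + 2 * (k : ℝ) * (i : ℝ) / (N : ℝ)) y)‖ ^ 2) N]
      exact Finset.sum_congr rfl (fun i _ => by rw [ht i])
    rw [e]
    have := (abs_le.1 h2).1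
    linarith
  · intro j
    have h1 := hN1 N hNN1 j
    have h3 := hK j k (hKj j)
    have e : ∑ i, S.D.wave (t i) (z j) =
        ∑ i ∈ Finset.range N,
          S.D.wave (-(k : ℝ) + 2 * (k : ℝ) * (i : ℝ) / (N : ℝ)) (z j) := by
      rw [← Fin.sum_univ_eq_sum_range
        (fun i : ℕ => S.D.wave (-(k : ℝ) + 2 * (k : ℝ) * (i : ℝ) / (N : ℝ)) (z j)) N]
      exact Finset.sum_congr rfl (fun i _ => by rw [ht i])
    rw [e, Crest.Agent.Helper97.S0112.natCast_inv_smul_complex]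
    calc ‖(N : ℝ)⁻¹ • ∑ i ∈ Finset.range N,
            S.D.wave (-(k : ℝ) + 2 * (k : ℝ) * (i : ℝ) / (N : ℝ)) (z j) -
          inner ℂ S.vac (z j) • S.vac‖
        ≤ ‖(N : ℝ)⁻¹ • ∑ i ∈ Finset.range N,
              S.D.wave (-(k : ℝ) + 2 * (k : ℝ) * (i : ℝ) / (N : ℝ)) (z j) -
            (2 * (k : ℝ))⁻¹ • ∫ t in (-(k : ℝ))..(k : ℝ), S.D.wave t (z j)‖ +
          ‖(2 * (k : ℝ))⁻¹ • (∫ t in (-(k : ℝ))..(k : ℝ), S.D.wave t (z j)) -
            inner ℂ S.vac (z j) • S.vac‖ := norm_sub_le_norm_sub_add_norm_sub _ _ _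
      _ ≤ ε / 2 + ε / 2 := add_le_add h1 h3.le
      _ = ε := by ring

/-- I.1 + perturbation in the shape of `core_of_packages`. -/
theorem hwin_inst (S : ModularDatum H) (ω : Ultrafilter ℕ)
    (hω : (ω : Filter ℕ) ≤ Filter.atTop) (T : H →L[ℂ] H) (h : H) (hh : ‖h‖ = 1)
    (c : ℝ) (hc : 0 < c)
    (hmean : c ≤ ultraMean ω (fun t : ℝ => ‖T (S.D.wave t h)‖ ^ 2)) :
    ∀ y : H, ∀ K : ℕ, ∃ k, K ≤ k ∧
      3 * c / 4 - ‖T‖ ^ 2 * (‖y‖ + 1) * ‖y - h‖ <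
        windowMean (fun t => ‖T (S.D.wave t y)‖ ^ 2) k := by
  intro y K
  have a1 : ∀ t, ‖T (S.D.wave t h)‖ ≤ ‖T‖ := by
    intro t
    have h1 : ‖T (S.D.wave t h)‖ ≤ ‖T‖ * ‖S.D.wave t h‖ := T.le_opNorm _
    rw [Crest.Agent.Helper63.S0112.norm_wave_apply, hh, mul_one] at h1
    exact h1
  have a2 : ∀ t, ‖T (S.D.wave t y)‖ ≤ ‖T‖ * ‖y‖ := by
    intro t
    have h1 : ‖T (S.D.wave t y)‖ ≤ ‖T‖ * ‖S.D.wave t y‖ := T.le_opNorm _
    rw [Crest.Agent.Helper63.S0112.norm_wave_apply] at h1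
    exact h1
  have hbound : ∀ t, |‖T (S.D.wave t h)‖ ^ 2| ≤ ‖T‖ ^ 2 := by
    intro t
    rw [abs_of_nonneg (by positivity)]
    exact pow_le_pow_left₀ (norm_nonneg _) (a1 t) 2
  obtain ⟨k, hkK, hk1, hklt⟩ := Crest.Agent.Helper98.S0112.exists_window ω hω
    (fun t : ℝ => ‖T (S.D.wave t h)‖ ^ 2) (‖T‖ ^ 2) hbound c hmean (c / 4) (by positivity) K
  refine ⟨k, hkK, ?_⟩
  obtain ⟨Δ, hΔ⟩ : ∃ Δ : ℝ, Δ = ‖T‖ ^ 2 * (‖y‖ + 1) * ‖y - h‖ := ⟨_, rfl⟩
  have hΔ0 : 0 ≤ Δ := by rw [hΔ]; positivity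
  rw [← hΔ]
  have hpt : ∀ t : ℝ, ‖T (S.D.wave t h)‖ ^ 2 - ‖T (S.D.wave t y)‖ ^ 2 ≤ Δ := by
    intro t
    have a3 : ‖T (S.D.wave t h)‖ - ‖T (S.D.wave t y)‖ ≤ ‖T‖ * ‖y - h‖ := by
      have h1 := norm_sub_norm_le (T (S.D.wave t h)) (T (S.D.wave t y))
      have e : T (S.D.wave t h) - T (S.D.wave t y) = T (S.D.wave t (h - y)) := by
        rw [map_sub, map_sub]
      rw [e] at h1
      have b : ‖T (S.D.wave t (h - y))‖ ≤ ‖T‖ * ‖S.D.wave t (h - y)‖ := T.le_opNorm _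
      rw [Crest.Agent.Helper63.S0112.norm_wave_apply, norm_sub_rev] at b
      linarith
    have e2 : ‖T (S.D.wave t h)‖ ^ 2 - ‖T (S.D.wave t y)‖ ^ 2 =
        (‖T (S.D.wave t h)‖ - ‖T (S.D.wave t y)‖) *
          (‖T (S.D.wave t h)‖ + ‖T (S.D.wave t y)‖) := by ring
    rw [e2]
    by_cases hneg : ‖T (S.D.wave t h)‖ - ‖T (S.D.wave t y)‖ ≤ 0
    · have h0 : (‖T (S.D.wave t h)‖ - ‖T (S.D.wave t y)‖) *
          (‖T (S.D.wave t h)‖ + ‖T (S.D.wave t y)‖) ≤ 0 :=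
        mul_nonpos_of_nonpos_of_nonneg hneg (by positivity)
      linarith
    · calc (‖T (S.D.wave t h)‖ - ‖T (S.D.wave t y)‖) *
            (‖T (S.D.wave t h)‖ + ‖T (S.D.wave t y)‖)
          ≤ (‖T‖ * ‖y - h‖) * (‖T‖ + ‖T‖ * ‖y‖) :=
            mul_le_mul a3 (add_le_add (a1 t) (a2 t)) (by positivity) (by positivity)
        _ = Δ := by rw [hΔ]; ring
  have hcont_h : Continuous fun t : ℝ => ‖T (S.D.wave t h)‖ ^ 2 :=
    ((T.continuous.comp (Crest.Agent.Helper63.S0112.continuous_wave_apply S.D h)).norm).pow 2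
  have hcont_y : Continuous fun t : ℝ => ‖T (S.D.wave t y)‖ ^ 2 :=
    ((T.continuous.comp (Crest.Agent.Helper63.S0112.continuous_wave_apply S.D y)).norm).pow 2
  have hk0 : (0 : ℝ) < (k : ℝ) := by exact_mod_cast hk1
  rw [Crest.Agent.Helper97.S0112.windowMean_eq] at hklt ⊢
  have hsub : (∫ t in (-(k : ℝ))..(k : ℝ), ‖T (S.D.wave t h)‖ ^ 2) -
      (∫ t in (-(k : ℝ))..(k : ℝ), ‖T (S.D.wave t y)‖ ^ 2) ≤ 2 * (k : ℝ) * Δ := by
    rw [← intervalIntegral.integral_sub (hcont_h.intervalIntegrable _ _)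
      (hcont_y.intervalIntegrable _ _)]
    have h1 := intervalIntegral.integral_mono_on (μ := MeasureTheory.volume)
      (by linarith : -(k : ℝ) ≤ (k : ℝ))
      ((hcont_h.sub hcont_y).intervalIntegrable _ _)
      ((continuous_const (y := Δ)).intervalIntegrable _ _) (fun t _ => hpt t)
    rw [intervalIntegral.integral_const, smul_eq_mul] at h1
    have e : ((k : ℝ) - -(k : ℝ)) * Δ = 2 * (k : ℝ) * Δ := by ring
    rw [e] at h1
    exact h1
  have hinv : 0 < (2 * (k : ℝ))⁻¹ := by positivity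
  have h2 := mul_le_mul_of_nonneg_left hsub hinv.le
  have e : (2 * (k : ℝ))⁻¹ * (2 * (k : ℝ) * Δ) = Δ := by field_simp
  rw [mul_sub, e] at h2
  linarith

/-- The `n`-free key statement of S0112. -/
theorem key (S : ModularDatum H) (herg : S.Ergodic) (ω : Ultrafilter ℕ)
    (hω : (ω : Filter ℕ) ≤ Filter.atTop) (T : H →L[ℂ] H) (s : ℝ) :
    Crest.Agent.Helper98.S0112.Key S ω T s := by
  obtain ⟨C₀, hC₀, hsm⟩ := hsmooth_inst S
  intro c hc
  refine ⟨C₀ * (Real.sqrt (2 * (‖T‖ ^ 2 + 1) * (12 + 12 * Real.exp (s + 2)) / c) / 2),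
    Real.sqrt (c / 8), Real.sqrt_pos.2 (by positivity), ?_⟩
  intro d h hd hd1 hh hband hmean
  exact core_of_packages S (Crest.Agent.Helper69.S0112.wave_vac S) C₀ hC₀ hsm (hstar_inst S)
    (hkms_inst S) T (hsamp_inst S herg T) hphase_inst (hres_inst S) s d hd hd1 h hh hband c hc
    (hwin_inst S ω hω T h hh c hc hmean)

end Crest.Agent.Helper49.S0112
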